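import Vale.Agent.P208X.Embed

open Metric Finset Vale.Agent.P208X

namespace Vale.Agent.Results.P208.GridSets

/-- Doubling subsets of a real inner product space that are closed under addition, or closed under
midpoints (for example convex), or finite unions of translation classes, embed isometrically into
a Euclidean space whose dimension is bounded in terms of the doubling constant. -/
theorem result {H : Type*} [NormedAddCommGroup H] [InnerProductSpace ℝ H] (X : Set H) (lam : ℕ)
    (hne : X.Nonempty) (hX : Doubling ball X lam ∨ Doubling closedBall X lam) :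
    ((∀ x ∈ X, ∀ y ∈ X, x + y ∈ X) → ∃ k : ℕ, 2 ^ k ≤ lam ∧ EmbedsInto X k 1) ∧
    ((∀ x ∈ X, ∀ y ∈ X, midpoint ℝ x y ∈ X) → ∃ k : ℕ, 2 ^ k ≤ lam ∧ EmbedsInto X k 1) ∧
    (∀ (T : Set H) (F : Finset H), (∀ x ∈ X, ∀ s ∈ T, x + s ∈ X) →
      (∀ x ∈ X, ∃ a ∈ F, x - a ∈ Submodule.span ℝ T) →
      ∃ k : ℕ, 2 ^ k ≤ lam * 2 ^ F.card ∧ EmbedsInto X k 1) := by
  refine ⟨fun hadd => ?_, fun hmid => ?_, fun T F hT hF => ?_⟩
  · obtain ⟨h1, h2⟩ := translation_bound hne hX hadd
    exact ⟨_, h2, embeds_of_subspace X 0 (Submodule.span ℝ X) fun x hx => by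
      rw [sub_zero]
      exact Submodule.subset_span hx⟩
  · obtain ⟨x0, hx0⟩ := hne
    obtain ⟨h1, h2⟩ := midpoint_bound x0 hx0 hX hmid
    exact ⟨_, h2, embeds_of_subspace X x0 (Submodule.span ℝ ((fun x => x - x0) '' X))
      fun x hx => Submodule.subset_span ⟨x, hx, rfl⟩⟩
  · obtain ⟨h1, h2⟩ := translation_bound hne hX hT
    have h3 : FiniteDimensional ℝ (Submodule.span ℝ (F : Set H)) :=
      FiniteDimensional.span_finset ℝ F
    have h4 : Module.finrank ℝ (Submodule.span ℝ (F : Set H)) ≤ F.card :=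
      finrank_span_finset_le_card F
    have h5 := Submodule.finrank_add_le_finrank_add_finrank (Submodule.span ℝ T)
      (Submodule.span ℝ (F : Set H))
    refine ⟨Module.finrank ℝ ↥(Submodule.span ℝ T ⊔ Submodule.span ℝ (F : Set H)), ?_,
      embeds_of_subspace X 0 (Submodule.span ℝ T ⊔ Submodule.span ℝ (F : Set H)) ?_⟩
    · calc 2 ^ Module.finrank ℝ ↥(Submodule.span ℝ T ⊔ Submodule.span ℝ (F : Set H))
          ≤ 2 ^ (Module.finrank ℝ (Submodule.span ℝ T) + F.card) :=
            Nat.pow_le_pow_right (by norm_num) (h5.trans (Nat.add_le_add_left h4 _))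
        _ = 2 ^ Module.finrank ℝ (Submodule.span ℝ T) * 2 ^ F.card := pow_add _ _ _
        _ ≤ lam * 2 ^ F.card := Nat.mul_le_mul_right _ h2
    · intro x hx
      rw [sub_zero]
      obtain ⟨a, ha, hxa⟩ := hF x hx
      have e : x = (x - a) + a := by abel
      rw [e]
      exact Submodule.add_mem _ (Submodule.mem_sup_left hxa)
        (Submodule.mem_sup_right (Submodule.subset_span ha))

end Vale.Agent.Results.P208.GridSets
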