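import Vale.Agent.P208X.Glue

open Metric Finset Vale.Agent.P208X

namespace Vale.Agent.Results.P208.UniformForms

variable {H : Type*} [NormedAddCommGroup H] [NormedSpace ℝ H]

theorem finite_to_all
    (hC : ∀ lam : ℕ, ∃ (k : ℕ) (D : ℝ), ∀ F : Finset H, Doubling closedBall (F : Set H) lam →
      EmbedsInto (F : Set H) k D) :
    ∀ lam : ℕ, ∃ (k : ℕ) (D : ℝ), ∀ X : Set H, Doubling closedBall X lam → EmbedsInto X k D := by
  intro lam
  obtain ⟨k, D, h⟩ := hC (lam ^ 2)
  exact ⟨k, max D 0, fun X hX => embeds_of_finite (le_max_right _ _) fun F hF =>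
    embeds_mono (le_max_left _ _) (h F (doubling_subset hF hX))⟩

theorem qualitative_to_finite [Nontrivial H]
    (hA : ∀ X : Set H, (∃ lam : ℕ, Doubling closedBall X lam) →
      ∃ (k : ℕ) (D : ℝ), EmbedsInto X k D) :
    ∀ lam : ℕ, ∃ (k : ℕ) (D : ℝ), ∀ F : Finset H, Doubling closedBall (F : Set H) lam →
      EmbedsInto (F : Set H) k D := by
  classical
  by_contra hcon
  push Not at hcon
  obtain ⟨lam, hlam⟩ := hcon
  choose F hFd hFe using hlam
  obtain ⟨v, hv⟩ := exists_ne (0 : H)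
  have he : ‖(‖v‖⁻¹ • v : H)‖ = 1 := by
    rw [norm_smul, norm_inv, norm_norm, inv_mul_cancel₀ (norm_ne_zero_iff.2 hv)]
  set e : H := ‖v‖⁻¹ • v with hedef
  set E : ℕ → Finset H := fun i => F (Nat.unpair i).1 ((Nat.unpair i).2 : ℝ) with hE
  have hne : ∀ i, ∃ x, x ∈ E i := by
    intro i
    by_contra hempty
    push Not at hempty
    refine hFe (Nat.unpair i).1 ((Nat.unpair i).2 : ℝ) ⟨1, fun _ => 0, one_pos, fun x hx => ?_⟩
    exact absurd (mem_coe.1 hx) (hempty x)
  choose x hx using hne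
  set R : ℕ → ℝ := fun i => 1 + ∑ y ∈ E i, dist y (x i) with hR
  have hRpos : ∀ i, 0 < R i := fun i => by
    have : 0 ≤ ∑ y ∈ E i, dist y (x i) := sum_nonneg fun _ _ => dist_nonneg
    rw [hR]
    simp only
    linarith
  have hRle : ∀ i, ∀ y ∈ E i, (1 / R i) * dist y (x i) ≤ 1 := by
    intro i y hy
    have h1 : dist y (x i) ≤ ∑ y ∈ E i, dist y (x i) :=
      single_le_sum (f := fun y => dist y (x i)) (fun _ _ => dist_nonneg) hy
    rw [one_div, inv_mul_le_iff₀ (hRpos i), mul_one, hR]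
    simp only
    linarith
  set G : ℕ → Set H := fun i =>
    (fun z => ((100 : ℝ) ^ i) • e + (1 / R i) • (z - x i)) '' (E i : Set H) with hGdef
  have hglue := glue e he G lam
    (fun i => ⟨x i, mem_coe.2 (hx i), by simp⟩)
    (fun i => by
      rintro _ ⟨z, hz, rfl⟩
      rw [mem_closedBall]
      have h1 := sim_dist (((100 : ℝ) ^ i) • e) (x i) (t := 1 / R i)
        (by have := hRpos i; positivity) z (x i)
      rw [sub_self, smul_zero, add_zero] at h1
      simp only
      rw [h1]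
      exact hRle i z (mem_coe.1 hz))
    (fun i => sim_doubling _ _ (by have := hRpos i; positivity) (hFd _ _))
  obtain ⟨k, D, hkD⟩ := hA _ ⟨_, hglue⟩
  have h1 : EmbedsInto (G (Nat.pair k ⌈D⌉₊)) k D :=
    embeds_subset (Set.subset_iUnion G _) hkD
  have h2 := sim_embeds _ _ (by have := hRpos (Nat.pair k ⌈D⌉₊); positivity) h1
  have h3 := embeds_mono (Nat.le_ceil D) h2
  rw [hE] at h3
  simp only [Nat.unpair_pair] at h3
  exact hFe _ _ h3

/-- The qualitative question of Lang and Plaut, its uniform form and its uniform form for finite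
sets are equivalent, in every nontrivial real normed space. -/
theorem result (H : Type*) [NormedAddCommGroup H] [NormedSpace ℝ H] [Nontrivial H] :
    ((∀ X : Set H, (∃ lam : ℕ, Doubling closedBall X lam) →
        ∃ (k : ℕ) (D : ℝ), EmbedsInto X k D) ↔
      (∀ lam : ℕ, ∃ (k : ℕ) (D : ℝ), ∀ X : Set H, Doubling closedBall X lam →
        EmbedsInto X k D)) ∧
    ((∀ X : Set H, (∃ lam : ℕ, Doubling closedBall X lam) →
        ∃ (k : ℕ) (D : ℝ), EmbedsInto X k D) ↔
      (∀ lam : ℕ, ∃ (k : ℕ) (D : ℝ), ∀ F : Finset H, Doubling closedBall (F : Set H) lam →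
        EmbedsInto (F : Set H) k D)) := by
  have hBA : (∀ lam : ℕ, ∃ (k : ℕ) (D : ℝ), ∀ X : Set H, Doubling closedBall X lam →
      EmbedsInto X k D) → ∀ X : Set H, (∃ lam : ℕ, Doubling closedBall X lam) →
        ∃ (k : ℕ) (D : ℝ), EmbedsInto X k D := by
    intro hB X hX
    obtain ⟨lam, hX⟩ := hX
    obtain ⟨k, D, h⟩ := hB lam
    exact ⟨k, D, h X hX⟩
  exact ⟨⟨fun hA => finite_to_all (qualitative_to_finite hA), hBA⟩,
    ⟨fun hA => qualitative_to_finite hA, fun hC => hBA (finite_to_all hC)⟩⟩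

end Vale.Agent.Results.P208.UniformForms
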